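import Crest.Agent.ZD.Hyp
import Crest.Agent.ZD.Mach0
import Crest.Agent.ZD.Tors

set_option autoImplicit false

namespace Crest.Agent.ZD

open FreeGroup (mk)

/-- the group presented by a good graph is hyperbolic -/
theorem Mach.hyperbolic {S : Type} [Finite S] [DecidableEq S] {Γ : LG S} {U : Set Γ.V}
    {x₀ : Γ.V} (h : Mach Γ U x₀) : Crest.GroupTheory.IsHyperbolicGroup Γ.Grp := by
  obtain ⟨ℓ, D, hl⟩ := h.lin
  refine Hyp.hyperbolic_of_linear Γ.pr Γ.pr_surj (Γ.sw ℓ) ℓ D (fun φ => φ.2.2)
    (fun φ => Γ.pr_cyc φ.1) fun w hw => ?_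
  obtain ⟨l, h1, h2, h3⟩ := hl w hw
  refine ⟨l.pmap (fun p hp => (p.1, ⟨p.2, hp⟩)) h2, ?_, by simpa using h3⟩
  rw [← fprod_unS, ← h1, unS, List.map_pmap]
  simp

/-- a residually finite group separates finitely many elements from the identity -/
lemma exists_sep {G : Type} [Group G] [Group.ResiduallyFinite G] (s : Finset G) :
    ∃ H : Subgroup G, H.Normal ∧ H.FiniteIndex ∧ ∀ g ∈ s, g ∈ H → g = 1 := by
  classical
  induction s using Finset.induction_on with
  | empty => exact ⟨⊤, inferInstance, inferInstance, by simp⟩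
  | insert g s _ ih =>
    obtain ⟨H, h1, h2, h3⟩ := ih
    by_cases hg : g = 1
    · refine ⟨H, h1, h2, fun x hx => ?_⟩
      rcases Finset.mem_insert.1 hx with rfl | hx
      · exact fun _ => hg
      · exact h3 x hx
    · obtain ⟨K, hK⟩ := Group.exists_finiteIndexNormalSubgroup_notMem g hg
      refine ⟨H ⊓ K.toSubgroup, inferInstance, inferInstance, fun x hx hx' => ?_⟩
      rcases Finset.mem_insert.1 hx with rfl | hx
      · exact absurd hx'.2 hK
      · exact h3 x hx hx'.1

/-- group algebras of residually finite groups over finite rings are directly finite -/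
theorem not_rf {G R : Type} [Group G] [CommRing R] [Finite R] (a b c : MonoidAlgebra R G)
    (hab : a * b = 1) (hac : a * c = 0) (hc : c ≠ 0) : ¬ Group.ResiduallyFinite G := by
  classical
  intro hG
  obtain ⟨g₀, hg₀⟩ : ∃ g₀, c.coeff g₀ ≠ 0 := by
    by_contra hh
    push Not at hh
    exact hc (by ext g; simp [hh])
  obtain ⟨H, h1, h2, h3⟩ := exists_sep (c.coeff.support.image fun g => g₀⁻¹ * g)
  let φ := MonoidAlgebra.mapDomainRingHom R (QuotientGroup.mk' H)
  have : Finite (MonoidAlgebra R (G ⧸ H)) :=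
    Finite.of_injective (fun x => (x.coeff : G ⧸ H → R)) fun x y h => by
      ext g; exact congrFun h g
  have e1 : φ a * φ b = 1 := by rw [← map_mul, hab, map_one]
  have e2 : φ b * φ a = 1 := mul_eq_one_comm.1 e1
  have e3 : φ c = 0 := by
    rw [← one_mul (φ c), ← e2, mul_assoc, ← map_mul, hac, map_zero, mul_zero]
  have e4 : (φ c).coeff (QuotientGroup.mk' H g₀) = c.coeff g₀ := by
    have : (φ c).coeff = Finsupp.mapDomain (QuotientGroup.mk' H) c.coeff := by
      simp [φ]
    rw [this, Finsupp.mapDomain, Finsupp.sum, Finset.sum_apply', Finset.sum_eq_single g₀]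
    · simp
    · intro g hg hne
      rw [Finsupp.single_apply, if_neg]
      intro h
      have h' : g₀⁻¹ * g ∈ H := QuotientGroup.eq.1 h.symm
      exact hne (eq_of_inv_mul_eq_one (h3 _ (Finset.mem_image_of_mem _ hg) h')).symm
    · intro h; exact absurd (Finsupp.mem_support_iff.2 hg₀) h
  rw [e3] at e4
  exact hg₀ (by rw [← e4]; simp)

/-- S0303 from the machine and the algebra -/
theorem Mach.s0303 {S : Type} [Finite S] [DecidableEq S] {Γ : LG S} {U : Set Γ.V}
    {x₀ : Γ.V} (h : Mach Γ U x₀) (a b c : MonoidAlgebra (ZMod 2) Γ.Grp)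
    (hab : a * b = 1) (hac : a * c = 0) (hc : c ≠ 0) :
    ∃ (G : Type) (_ : Group G),
      (∀ g : G, IsOfFinOrder g → g = 1) ∧ Crest.GroupTheory.IsHyperbolicGroup G ∧
        ¬ Group.ResiduallyFinite G :=
  ⟨Γ.Grp, inferInstance, h.osc.some.torsionFree, h.hyperbolic, not_rf a b c hab hac hc⟩

end Crest.Agent.ZD
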