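import Mathlib

/-! Metric part of "linear isoperimetric inequality implies hyperbolic". -/

set_option autoImplicit false

namespace Crest.Agent.ZD.Hyp

/-- chains of adjacent points, with the value of the area functional `∑ (f₁ + f₁) d f₂` -/
inductive Ch {V : Type} (d : V → V → ℕ) (f₁ f₂ : V → ℕ) : V → V → ℕ → ℤ → Prop
  | nil (u : V) : Ch d f₁ f₂ u u 0 0
  | snoc {u v w : V} {m : ℕ} {c : ℤ} : Ch d f₁ f₂ u v m c → d v w ≤ 1 →
      Ch d f₁ f₂ u w (m + 1) (c + ((f₁ v : ℤ) + f₁ w) * ((f₂ w : ℤ) - f₂ v))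

/-- chains of adjacent points inside a set -/
inductive Av {V : Type} (d : V → V → ℕ) (F : V → Prop) : V → V → ℕ → Prop
  | nil {u : V} : F u → Av d F u u 0
  | snoc {u v w : V} {m : ℕ} : Av d F u v m → d v w ≤ 1 → F w → Av d F u w (m + 1)

/-- geodesics -/
def Geo {V : Type} (d : V → V → ℕ) (β : ℕ → V) (n : ℕ) : Prop :=
  ∀ i j, i ≤ j → j ≤ n → d (β i) (β j) = j - i

/-- a geodesic graph metric with a linear bound for the area functional -/
structure Sp (V : Type) (A : ℕ) where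
  d : V → V → ℕ
  self : ∀ u, d u u = 0
  symm : ∀ u v, d u v = d v u
  tri : ∀ u v w, d u w ≤ d u v + d v w
  geo : ∀ u v, ∃ β : ℕ → V, Geo d β (d u v) ∧ β 0 = u ∧ β (d u v) = v
  area : ∀ f₁ f₂ : V → ℕ, (∀ u v, f₁ u ≤ f₁ v + d u v) → (∀ u v, f₂ u ≤ f₂ v + d u v) →
    ∀ u m c, Ch d f₁ f₂ u u m c → c ≤ A * m

section
variable {V : Type} {d : V → V → ℕ}

lemma Ch.trans {f₁ f₂ : V → ℕ} {u v w : V} {m m' : ℕ} {c c' : ℤ} (h : Ch d f₁ f₂ u v m c)
    (h' : Ch d f₁ f₂ v w m' c') : Ch d f₁ f₂ u w (m + m') (c + c') := by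
  induction h' with
  | nil => simpa using h
  | snoc _ h2 ih =>
    rw [← add_assoc, ← add_assoc]
    exact ih.snoc h2

lemma Av.right {F : V → Prop} {u v : V} {m : ℕ} (h : Av d F u v m) : F v := by
  cases h <;> assumption

lemma Av.left {F : V → Prop} {u v : V} {m : ℕ} (h : Av d F u v m) : F u := by
  induction h <;> assumption

lemma Av.trans {F : V → Prop} {u v w : V} {m m' : ℕ} (h : Av d F u v m) (h' : Av d F v w m') :
    Av d F u w (m + m') := by
  induction h' with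
  | nil => simpa using h
  | snoc _ h2 h3 ih =>
    rw [← add_assoc]
    exact ih.snoc h2 h3

lemma Av.symm (hs : ∀ u v, d u v = d v u) {F : V → Prop} {u v : V} {m : ℕ} (h : Av d F u v m) :
    Av d F v u m := by
  induction h with
  | nil h => exact .nil h
  | snoc h1 h2 h3 ih =>
    have := ((Av.nil h3).snoc (hs _ _ ▸ h2) h1.right).trans ih
    rwa [zero_add, add_comm] at this

lemma Av.mono {F F' : V → Prop} (hF : ∀ v, F v → F' v) {u v : V} {m : ℕ} (h : Av d F u v m) :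
    Av d F' u v m := by
  induction h with
  | nil h => exact .nil (hF _ h)
  | snoc _ h2 h3 ih => exact ih.snoc h2 (hF _ h3)

lemma Av.ch {F : V → Prop} {f₁ : V → ℕ} (f₂ : V → ℕ) (hF : ∀ v, F v → f₁ v = 0) {u v : V}
    {m : ℕ} (h : Av d F u v m) : Ch d f₁ f₂ u v m 0 := by
  induction h with
  | nil h => exact .nil _
  | snoc h1 h2 h3 ih =>
    have := ih.snoc h2
    rwa [hF _ h1.right, hF _ h3, Nat.cast_zero, add_zero, zero_mul, add_zero] at this

lemma Geo.av {F : V → Prop} {β : ℕ → V} {n : ℕ} (h : Geo d β n) (m : ℕ) (hm : m ≤ n)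
    (hF : ∀ i, i ≤ m → F (β i)) : Av d F (β 0) (β m) m := by
  induction m with
  | zero => exact .nil (hF 0 le_rfl)
  | succ m ih =>
    refine (ih (by omega) fun i hi => hF i (by omega)).snoc ?_ (hF _ le_rfl)
    rw [h m (m + 1) (by omega) hm]; omega

lemma Geo.mono {β : ℕ → V} {n m : ℕ} (h : Geo d β n) (hm : m ≤ n) : Geo d β m :=
  fun i j hij hj => h i j hij (hj.trans hm)

lemma Geo.shift {β : ℕ → V} {n : ℕ} (h : Geo d β n) (s m : ℕ) (hm : s + m ≤ n) :
    Geo d (fun i => β (s + i)) m := by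
  intro i j hij hj
  show d (β (s + i)) (β (s + j)) = _
  rw [h _ _ (by omega) (by omega)]; omega

end

namespace Sp
variable {V : Type} {A : ℕ} (X : Sp V A)

lemma link {F : V → Prop} (u v : V) (hF : ∀ q, X.d u q + X.d q v = X.d u v → F q) :
    Av X.d F u v (X.d u v) := by
  obtain ⟨β, h, h0, h1⟩ := X.geo u v
  have := h.av (F := F) _ le_rfl fun i hi => hF _ (by
    have e1 := h 0 i (by omega) hi
    have e2 := h i _ hi le_rfl
    rw [h0] at e1; rw [h1] at e2; omega)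
  rwa [h0, h1] at this

/-- divergence: a detour around a geodesic segment is long -/
lemma div {β : ℕ → V} {L : ℕ} (h : Geo X.d β L) (k t₁ t₂ m : ℕ) (h2 : t₂ ≤ L)
    (hav : Av X.d (fun v => ∀ t, t₁ ≤ t → t ≤ t₂ → k ≤ X.d v (β t)) (β 0) (β L) m) :
    2 * k * (t₂ - t₁) ≤ A * (L + m) := by
  classical
  set f₁ : V → ℕ := fun v => (Finset.Icc t₁ t₂).sup fun t => k - X.d v (β t) with hf₁
  set f₂ : V → ℕ := fun v => X.d (β 0) v with hf₂
  have l1 : ∀ u v, f₁ u ≤ f₁ v + X.d u v := by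
    intro u v
    refine Finset.sup_le fun t ht => ?_
    have e1 : k - X.d v (β t) ≤ f₁ v := Finset.le_sup (f := fun t => k - X.d v (β t)) ht
    have e2 := X.tri v u (β t)
    rw [X.symm v u] at e2
    omega
  have l2 : ∀ u v, f₂ u ≤ f₂ v + X.d u v := by
    intro u v
    have := X.tri (β 0) v u
    rw [X.symm v u] at this
    exact this
  have hk : ∀ t, t₁ ≤ t → t ≤ t₂ → k ≤ f₁ (β t) := by
    intro t a b
    have e1 : k - X.d (β t) (β t) ≤ f₁ (β t) :=
      Finset.le_sup (f := fun s => k - X.d (β t) (β s)) (Finset.mem_Icc.2 ⟨a, b⟩)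
    rwa [X.self, Nat.sub_zero] at e1
  have key : ∀ s, s ≤ L → ∃ c : ℤ, Ch X.d f₁ f₂ (β 0) (β s) s c ∧
      ((2 * k * (min s t₂ - t₁) : ℕ) : ℤ) ≤ c := by
    intro s
    induction s with
    | zero => intro _; exact ⟨0, .nil _, by simp⟩
    | succ s ih =>
      intro hs
      obtain ⟨c, hc, hc'⟩ := ih (by omega)
      refine ⟨_, hc.snoc (by rw [h s (s + 1) (by omega) hs]; omega), ?_⟩
      have e1 : f₂ (β (s + 1)) = s + 1 := h 0 _ (by omega) hs
      have e2 : f₂ (β s) = s := h 0 _ (by omega) (by omega)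
      rw [e1, e2]
      have e3 : (((s + 1 : ℕ) : ℤ) - (s : ℤ)) = 1 := by push_cast; ring
      rw [e3, mul_one]
      by_cases hh : t₁ ≤ s ∧ s < t₂
      · have e4 : min (s + 1) t₂ - t₁ = min s t₂ - t₁ + 1 := by omega
        have e5 := hk s hh.1 (by omega)
        have e6 := hk (s + 1) (by omega) (by omega)
        rw [e4, mul_add]
        push_cast at hc' ⊢
        omega
      · have e4 : min (s + 1) t₂ - t₁ = min s t₂ - t₁ := by omega
        rw [e4]
        omega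
  obtain ⟨c, hc, hc'⟩ := key L le_rfl
  have h0 := (hav.symm X.symm).ch (f₁ := f₁) f₂ (by
    intro v hv
    refine Nat.eq_zero_of_le_zero (Finset.sup_le fun t ht => ?_)
    have := hv t (Finset.mem_Icc.1 ht).1 (Finset.mem_Icc.1 ht).2
    omega)
  have := X.area f₁ f₂ l1 l2 _ _ _ (hc.trans h0)
  rw [min_eq_right h2] at hc'
  have e : ((2 * k * (t₂ - t₁) : ℕ) : ℤ) ≤ ((A * (L + m) : ℕ) : ℤ) := by
    push_cast at this hc' ⊢; omega
  exact_mod_cast e

/-- one side of a hexagon -/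
lemma one {β : ℕ → V} {L : ℕ} (h : Geo X.d β L) (k m₁ m₂ : ℕ) (a c c' b : V)
    (h1 : Av X.d (fun v => ∀ t, 0 < t → t < L → 2 * k + 1 ≤ X.d v (β t)) a c m₁)
    (h2 : Av X.d (fun v => ∀ t, 0 < t → t < L → 2 * k + 1 ≤ X.d v (β t)) c' b m₂)
    (ha : X.d (β 0) a ≤ 2 * k + 1) (hc : X.d c c' ≤ 2 * k + 1) (hb : X.d b (β L) ≤ 2 * k + 1) :
    2 * k * (L - (6 * k + 2)) ≤ A * (L + (m₁ + m₂ + 3 * (2 * k + 1))) := by
  by_cases hL : L ≤ 6 * k + 2
  · rw [Nat.sub_eq_zero_of_le hL]; simp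
  set F : V → Prop := fun v => ∀ t, 3 * k + 1 ≤ t → t ≤ L - (3 * k + 1) → k ≤ X.d v (β t)
  have g1 : Av X.d F a c m₁ := h1.mono fun v hv t a b => by
    have := hv t (by omega) (by omega); omega
  have g2 : Av X.d F c' b m₂ := h2.mono fun v hv t a b => by
    have := hv t (by omega) (by omega); omega
  have g3 : Av X.d F (β 0) a (X.d (β 0) a) := X.link _ _ fun q hq t a b => by
    have e1 := h 0 t (by omega) (by omega)
    have e2 := X.tri (β 0) q (β t)
    omega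
  have g4 : Av X.d F b (β L) (X.d b (β L)) := X.link _ _ fun q hq t a b => by
    have e1 := h t L (by omega) (by omega)
    have e2 := X.tri (β t) q (β L)
    rw [X.symm (β t) q] at e2
    omega
  have g5 : Av X.d F c c' (X.d c c') := X.link _ _ fun q hq t a b => by
    have e1 := h1.right t (by omega) (by omega)
    have e2 := h2.left t (by omega) (by omega)
    have e3 := X.tri c q (β t)
    have e4 := X.tri c' q (β t)
    rw [X.symm c' q] at e4
    omega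
  have := X.div h k _ _ _ (Nat.sub_le _ _) ((((g3.trans g1).trans g5).trans g2).trans g4)
  have e : L - (3 * k + 1) - (3 * k + 1) = L - (6 * k + 2) := by omega
  rw [e] at this
  exact this.trans (Nat.mul_le_mul_left _ (by omega))

/-- fat hexagons are small -/
lemma hex {β γ δ : ℕ → V} {L n₁ n₂ : ℕ} (hβ : Geo X.d β L) (hγ : Geo X.d γ n₁)
    (hδ : Geo X.d δ n₂) (hz : γ n₁ = δ n₂) (k : ℕ) (hk : 4 * A < k)
    (f1 : ∀ t i, t ≤ L → i ≤ n₁ → 2 * k + 1 ≤ X.d (γ i) (β t))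
    (f2 : ∀ t i, t ≤ L → i ≤ n₂ → 2 * k + 1 ≤ X.d (δ i) (β t))
    (ha : X.d (β 0) (γ 0) ≤ 2 * k + 1) (hb : X.d (δ 0) (β L) ≤ 2 * k + 1) :
    L ≤ 15 * k + 6 := by
  classical
  have hex : ∃ i, i ≤ n₁ ∧ ∃ j, j ≤ n₂ ∧ X.d (γ i) (δ j) ≤ 2 * k + 1 :=
    ⟨n₁, le_rfl, n₂, le_rfl, by rw [hz, X.self]; omega⟩
  set i := Nat.find hex with hi
  obtain ⟨hi1, j, hj, hij⟩ := Nat.find_spec hex
  rw [← hi] at hi1 hij
  have hmin : ∀ i', i' < i → ∀ j', j' ≤ n₂ → 2 * k + 1 ≤ X.d (δ j') (γ i') := by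
    intro i' h' j' hj'
    by_contra hc
    exact Nat.find_min hex h' ⟨by omega, j', hj', by rw [X.symm]; omega⟩
  have a1 := X.one hβ k i j (γ 0) (γ i) (δ j) (δ 0)
    (hγ.av i hi1 fun s hs t a b => f1 t s (by omega) (by omega))
    ((hδ.av j hj fun s hs t a b => f2 t s (by omega) (by omega)).symm X.symm) ha hij hb
  have a2 := X.one (hγ.mono hi1) k L j (β 0) (β L) (δ 0) (δ j)
    (hβ.av L le_rfl fun s hs t a b => X.symm _ _ ▸ f1 s t hs (by omega))
    (hδ.av j hj fun s hs t a b => hmin t b s (by omega)) (X.symm _ _ ▸ ha) (X.symm _ _ ▸ hb)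
    (X.symm _ _ ▸ hij)
  have e1 := hδ 0 j (by omega) hj
  have e2 := hγ 0 i (by omega) hi1
  have e3 := hβ 0 L (by omega) le_rfl
  have e4 := X.tri (δ 0) (β L) (δ j)
  have e5 := X.tri (β L) (β 0) (δ j)
  have e6 := X.tri (β 0) (γ 0) (δ j)
  have e7 := X.tri (γ 0) (γ i) (δ j)
  rw [X.symm (β L) (β 0)] at e5
  have hj' : j ≤ L + i + 3 * (2 * k + 1) := by omega
  obtain ⟨M, hM1, hM2, hM⟩ : ∃ M, L ≤ M ∧ i ≤ M ∧
      2 * k * (M - (6 * k + 2)) ≤ A * (4 * M + 6 * (2 * k + 1)) := by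
    rcases le_total L i with h | h
    · exact ⟨i, h, le_rfl, a2.trans (Nat.mul_le_mul_left _ (by omega))⟩
    · exact ⟨L, le_rfl, h, a1.trans (Nat.mul_le_mul_left _ (by omega))⟩
  by_contra hc
  obtain ⟨N, rfl⟩ : ∃ N, M = N + (6 * k + 2) := ⟨M - (6 * k + 2), by omega⟩
  rw [Nat.add_sub_cancel] at hM
  have e8 : 4 * (N + (6 * k + 2)) + 6 * (2 * k + 1) ≤ 8 * N := by omega
  have e9 := hM.trans (Nat.mul_le_mul_left A e8)
  have e10 : 0 < N := by omega
  nlinarith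

/-- slim triangles -/
lemma slim {β : ℕ → V} {n : ℕ} (hβ : Geo X.d β n) (z : V) (F : V → Prop)
    (hF : ∀ u, F u → ∀ q, X.d u q + X.d q z = X.d u z → F q) (h0 : F (β 0)) (hn : F (β n))
    (t : ℕ) (ht : t ≤ n) : ∃ u, F u ∧ X.d (β t) u ≤ 17 * (4 * A + 1) + 7 := by
  classical
  set k := 4 * A + 1 with hk
  set P : ℕ → Prop := fun s => ∃ u, F u ∧ X.d (β s) u ≤ 2 * k with hP
  by_cases hPt : P t
  · obtain ⟨u, hu, h⟩ := hPt
    exact ⟨u, hu, by omega⟩
  have P0 : P 0 := ⟨_, h0, by rw [X.self]; omega⟩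
  have Pn : P n := ⟨_, hn, by rw [X.self]; omega⟩
  set t₁ := Nat.findGreatest P t with ht₁
  have p1 : P t₁ := Nat.findGreatest_spec (Nat.zero_le t) P0
  have l1 : t₁ ≤ t := Nat.findGreatest_le t
  have l1' : t₁ ≠ t := fun e => hPt (e ▸ p1)
  have m1 : ∀ s, t₁ < s → s ≤ t → ¬ P s := fun s a b => Nat.findGreatest_is_greatest a b
  have hex : ∃ s, t ≤ s ∧ P s := ⟨n, ht, Pn⟩
  set t₂ := Nat.find hex with ht₂
  obtain ⟨l2, p2⟩ := Nat.find_spec hex
  rw [← ht₂] at l2 p2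
  have l2' : t₂ ≠ t := fun e => hPt (e ▸ p2)
  have l3 : t₂ ≤ n := Nat.find_min' hex ⟨ht, Pn⟩
  have m2 : ∀ s, t ≤ s → s < t₂ → ¬ P s := fun s a b c => Nat.find_min hex b ⟨a, c⟩
  have far : ∀ s, t₁ < s → s < t₂ → ∀ u, F u → 2 * k + 1 ≤ X.d u (β s) := by
    intro s a b u hu
    by_contra hc
    have : P s := ⟨u, hu, by rw [X.symm]; omega⟩
    rcases le_total s t with h | h
    · exact m1 s a h this
    · exact m2 s h b this
  obtain ⟨a, ha, da⟩ := p1
  obtain ⟨b, hb, db⟩ := p2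
  obtain ⟨γ, hγ, γ0, γ1⟩ := X.geo a z
  obtain ⟨δ, hδ, δ0, δ1⟩ := X.geo b z
  have Fγ : ∀ i, i ≤ X.d a z → F (γ i) := fun i hi => hF a ha _ (by
    have e1 := hγ 0 i (by omega) hi
    have e2 := hγ i _ hi le_rfl
    rw [γ0] at e1; rw [γ1] at e2; omega)
  have Fδ : ∀ i, i ≤ X.d b z → F (δ i) := fun i hi => hF b hb _ (by
    have e1 := hδ 0 i (by omega) hi
    have e2 := hδ i _ hi le_rfl
    rw [δ0] at e1; rw [δ1] at e2; omega)
  have := X.hex (hβ.shift (t₁ + 1) (t₂ - t₁ - 2) (by omega)) hγ hδ (γ1.trans δ1.symm) k (by omega)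
    (fun s i hs hi => far _ (by omega) (by omega) _ (Fγ i hi))
    (fun s i hs hi => far _ (by omega) (by omega) _ (Fδ i hi))
    (by
      show X.d (β (t₁ + 1 + 0)) (γ 0) ≤ _
      have e1 := X.tri (β (t₁ + 1)) (β t₁) a
      have e2 := hβ t₁ (t₁ + 1) (by omega) (by omega)
      rw [X.symm] at e2
      rw [γ0, add_zero]; omega)
    (by
      show X.d (δ 0) (β (t₁ + 1 + (t₂ - t₁ - 2))) ≤ _
      have e1 := X.tri b (β t₂) (β (t₁ + 1 + (t₂ - t₁ - 2)))
      have e2 := hβ (t₁ + 1 + (t₂ - t₁ - 2)) t₂ (by omega) (by omega)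
      rw [X.symm] at e2 db
      rw [δ0]; omega)
  refine ⟨a, ha, ?_⟩
  have e1 := X.tri (β t) (β t₁) a
  have e2 := hβ t₁ t l1 ht
  rw [X.symm] at e2
  omega

lemma slim' {β : ℕ → V} {n : ℕ} (hβ : Geo X.d β n) (x : V) (s : ℕ)
    (hs : 2 * s + 2 * (17 * (4 * A + 1) + 7) + X.d x (β n) < n + X.d (β 0) x) :
    X.d (β s) x + s ≤ X.d (β 0) x + 2 * (17 * (4 * A + 1) + 7) := by
  have e0 := hβ 0 n (by omega) le_rfl
  have e1 := X.tri (β 0) (β n) x
  rw [X.symm (β n) x] at e1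
  have hsn : s ≤ n := by omega
  obtain ⟨u, hu, du⟩ := X.slim hβ x
    (fun u => X.d (β 0) u + X.d u x = X.d (β 0) x ∨ X.d (β n) u + X.d u x = X.d (β n) x)
    (by
      intro u hu q hq
      have e2 := X.tri (β 0) u q
      have e3 := X.tri (β 0) q x
      have e4 := X.tri (β n) u q
      have e5 := X.tri (β n) q x
      omega) (by left; rw [X.self, zero_add]) (by right; rw [X.self, zero_add]) s hsn
  have e2 := hβ 0 s (by omega) hsn
  have e3 := hβ s n hsn le_rfl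
  have e4 := X.tri (β s) u x
  have e5 := X.tri (β 0) u (β s)
  have e6 := X.tri (β s) u (β n)
  have e7 := X.tri (β 0) (β s) u
  have e8 := X.tri (β 0) u x
  rw [X.symm u (β s)] at e5
  rw [X.symm u (β n)] at e6
  rw [X.symm x (β n)] at hs
  omega

/-- the four point condition -/
theorem four (w x y z : V) :
    min ((X.d x w : ℤ) + X.d y w - X.d x y) ((X.d y w : ℤ) + X.d z w - X.d y z) -
      (6 * (17 * (4 * A + 1) + 7) + 2 : ℕ) ≤ (X.d x w : ℤ) + X.d z w - X.d x z := by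
  obtain ⟨β, hβ, β0, β1⟩ := X.geo w y
  have s1 := X.slim' hβ x
  have s2 := X.slim' hβ z
  rw [β0, β1] at s1 s2
  generalize 17 * (4 * A + 1) + 7 = D at *
  have e1 := X.tri x w z
  rw [X.symm x w, X.symm y w, X.symm z w, X.symm y z] at *
  set μ := min ((X.d w x : ℤ) + X.d w y - X.d x y) ((X.d w y : ℤ) + X.d w z - X.d z y) with hμ
  by_cases h : μ ≤ 2 * D + 2
  · push_cast; omega
  have hs : ∃ s : ℕ, 2 * s + 2 * D < μ ∧ μ ≤ 2 * s + 2 * D + 2 :=
    ⟨((μ - 2 * D - 1) / 2).toNat, by omega, by omega⟩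
  obtain ⟨s, h1, h2⟩ := hs
  have t1 := s1 s (by omega)
  have t2 := s2 s (by omega)
  have e2 := X.tri x (β s) z
  rw [X.symm x (β s)] at e2
  push_cast; omega

end Sp

end Crest.Agent.ZD.Hyp
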