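import Crest.Agent.ZD.Defs
import Crest.Agent.ZD.HypA
import Crest.Prelude.Def_WordHyperbolic

/-! A linear isoperimetric inequality implies word-hyperbolicity. -/

set_option autoImplicit false

namespace Crest.Agent.ZD.Hyp

open FreeGroup (mk of invRev mul_mk inv_mk one_eq_mk)
open Crest.GroupTheory

section
variable {S G : Type} [Group G] (π : FreeGroup S →* G) (f₁ f₂ : G → ℕ)

/-- the area form on an edge -/
def ed (u v : G) : ℤ := ((f₁ u : ℤ) + f₁ v) * ((f₂ v : ℤ) - f₂ u)

/-- the area functional of a word -/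
def ar : G → List (S × Bool) → ℤ
  | _, [] => 0
  | u, d :: w => ed f₁ f₂ u (u * π (mk [d])) + ar (u * π (mk [d])) w

lemma mk_cons (d : S × Bool) (w : List (S × Bool)) : mk (d :: w) = mk [d] * mk w := by
  rw [mul_mk, List.singleton_append]

lemma ar_append (u : G) (w w' : List (S × Bool)) :
    ar π f₁ f₂ u (w ++ w') = ar π f₁ f₂ u w + ar π f₁ f₂ (u * π (mk w)) w' := by
  induction w generalizing u with
  | nil => simp [ar, ← one_eq_mk]
  | cons d w ih =>
    rw [List.cons_append, ar, ar, ih, mk_cons d w, map_mul, mul_assoc, add_assoc]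

lemma mk_pair (s : S) (b : Bool) : (mk [(s, b)] : FreeGroup S) * mk [(s, !b)] = 1 := by
  have : [(s, !b)] = invRev [(s, b)] := by simp [invRev]
  rw [this, ← inv_mk, mul_inv_cancel]

/-- the area functional on the free group -/
def arF (u : G) : FreeGroup S → ℤ :=
  Quot.lift (ar π f₁ f₂ u) (by
    rintro _ _ ⟨⟩
    rename_i L₁ L₂ s b
    rw [ar_append, ar_append, ar, ar, mul_assoc (u * π (mk L₁)), ← map_mul, mk_pair, map_one,
      mul_one]
    simp only [ed]; ring)

lemma arF_mk (u : G) (w : List (S × Bool)) : arF π f₁ f₂ u (mk w) = ar π f₁ f₂ u w := rfl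

lemma arF_one (u : G) : arF π f₁ f₂ u 1 = 0 := rfl

lemma arF_mul (u : G) (g h : FreeGroup S) :
    arF π f₁ f₂ u (g * h) = arF π f₁ f₂ u g + arF π f₁ f₂ (u * π g) h := by
  obtain ⟨w⟩ := g
  obtain ⟨w'⟩ := h
  exact ar_append π f₁ f₂ u w w'

lemma arF_conj (u : G) (g r : FreeGroup S) (hr : π r = 1) :
    arF π f₁ f₂ u (g * r * g⁻¹) = arF π f₁ f₂ (u * π g) r := by
  have h := arF_mul π f₁ f₂ u g g⁻¹
  rw [mul_inv_cancel, arF_one] at h
  rw [arF_mul, arF_mul, map_mul, hr, mul_one]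
  linarith

lemma ar_bound (h1 : ∀ u d, |(f₁ (u * π (mk [d])) : ℤ) - f₁ u| ≤ 1)
    (h2 : ∀ u d, |(f₂ (u * π (mk [d])) : ℤ) - f₂ u| ≤ 1) (c : ℤ) (ℓ : ℕ) (w : List (S × Bool))
    (u : G) (h : |(f₁ u : ℤ) - c| + w.length ≤ ℓ) :
    ar π f₁ f₂ u w - 2 * c * ((f₂ (u * π (mk w)) : ℤ) - f₂ u) ≤ 2 * ℓ * w.length := by
  induction w generalizing u with
  | nil => simp [ar, ← one_eq_mk]
  | cons d w ih =>
    have a1 := abs_le.1 (h1 u d)
    have a2 := abs_le.1 (h2 u d)
    rw [List.length_cons] at h ⊢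
    push_cast at h ⊢
    have a0 : |(f₁ u : ℤ) - c| ≤ ℓ - 1 - w.length := by linarith
    have a3 := abs_le.1 a0
    have a4 : |(f₁ (u * π (mk [d])) : ℤ) - c| ≤ ℓ - w.length := abs_le.2 ⟨by omega, by omega⟩
    have := ih (u * π (mk [d])) (by linarith)
    rw [ar, mk_cons d w, map_mul, ← mul_assoc, ed]
    have a5 := abs_le.1 a4
    generalize (f₁ (u * π (mk [d])) : ℤ) = p at *
    generalize (f₂ (u * π (mk [d])) : ℤ) = q at *
    generalize (f₂ (u * π (mk [d]) * π (mk w)) : ℤ) = q' at *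
    have a6 : ((f₁ u : ℤ) + p - 2 * c) * (q - f₂ u) ≤ 2 * ℓ := by
      have : q - f₂ u = -1 ∨ q - f₂ u = 0 ∨ q - f₂ u = 1 := by omega
      rcases this with e | e | e <;> rw [e] <;> omega
    nlinarith

lemma arF_fprod {Φ : Type} (wd : Φ → List (S × Bool)) (ℓ : ℕ) (hℓ : ∀ φ, (wd φ).length ≤ ℓ)
    (hwd : ∀ φ, π (mk (wd φ)) = 1) (h1 : ∀ u d, |(f₁ (u * π (mk [d])) : ℤ) - f₁ u| ≤ 1)
    (h2 : ∀ u d, |(f₂ (u * π (mk [d])) : ℤ) - f₂ u| ≤ 1) (u : G) (l : List (FreeGroup S × Φ)) :
    arF π f₁ f₂ u (fprod wd l) ≤ 2 * ℓ * ℓ * l.length := by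
  induction l with
  | nil => simp [fprod, arF_one]
  | cons p l ih =>
    have e : fprod wd (p :: l) = p.1 * mk (wd p.2) * p.1⁻¹ * fprod wd l := by simp [fprod]
    have e1 : π (p.1 * mk (wd p.2) * p.1⁻¹) = 1 := by simp [hwd]
    rw [e, arF_mul, e1, mul_one, arF_conj π f₁ f₂ u _ _ (hwd _), arF_mk]
    have := ar_bound π f₁ f₂ h1 h2 (f₁ (u * π p.1)) ℓ (wd p.2) (u * π p.1)
      (by simpa using hℓ p.2)
    rw [hwd, mul_one, sub_self, mul_zero, sub_zero] at this
    have e2 : ((wd p.2).length : ℤ) ≤ ℓ := by exact_mod_cast hℓ p.2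
    rw [List.length_cons]
    push_cast
    nlinarith

/-- the generators -/
def gens : Set G := Set.range fun s => π (of s)

lemma wl_le (w : List (S × Bool)) : wordLength (gens π) (π (mk w)) ≤ w.length := by
  refine Nat.sInf_le ⟨w.map fun d => π (mk [d]), by simp, ?_, ?_⟩
  · intro x hx
    obtain ⟨⟨s, b⟩, -, rfl⟩ := List.mem_map.1 hx
    cases b
    · right
      refine ⟨s, ?_⟩
      rw [← map_inv, inv_mk]; rfl
    · left; exact ⟨s, rfl⟩
  · induction w with
    | nil => simp [← one_eq_mk]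
    | cons d w ih => rw [List.map_cons, List.prod_cons, ih, mk_cons d w, map_mul]

lemma wl_spec (surj : Function.Surjective π) (g : G) :
    ∃ w : List (S × Bool), w.length = wordLength (gens π) g ∧ π (mk w) = g := by
  have hne : {n : ℕ | ∃ l : List G, l.length = n ∧ (∀ x ∈ l, x ∈ gens π ∨ x⁻¹ ∈ gens π) ∧
      l.prod = g}.Nonempty := by
    obtain ⟨⟨w⟩, rfl⟩ := surj g
    refine ⟨w.length, w.map fun d => π (mk [d]), by simp, ?_, ?_⟩
    · intro x hx
      obtain ⟨⟨s, b⟩, -, rfl⟩ := List.mem_map.1 hx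
      cases b
      · right
        refine ⟨s, ?_⟩
        rw [← map_inv, inv_mk]; rfl
      · left; exact ⟨s, rfl⟩
    · show _ = π (mk w)
      induction w with
      | nil => simp [← one_eq_mk]
      | cons d w ih => rw [List.map_cons, List.prod_cons, ih, mk_cons d w, map_mul]
  obtain ⟨l, h1, h2, h3⟩ := Nat.sInf_mem hne
  rw [wordLength, ← h1, ← h3]
  clear h1 h3 hne
  induction l with
  | nil => exact ⟨[], rfl, by simp [← one_eq_mk]⟩
  | cons x l ih =>
    obtain ⟨w, hw, hw'⟩ := ih fun y hy => h2 y (List.mem_cons_of_mem _ hy)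
    rcases h2 x List.mem_cons_self with ⟨s, hs⟩ | ⟨s, hs⟩
    · exact ⟨(s, true) :: w, by simp [hw], by
        rw [mk_cons, map_mul, hw', List.prod_cons, ← hs]; rfl⟩
    · refine ⟨(s, false) :: w, by simp [hw], ?_⟩
      rw [mk_cons, map_mul, hw', List.prod_cons, ← inv_inv x, ← hs, ← map_inv]
      congr 2

/-- the word metric -/
noncomputable def dd (u v : G) : ℕ := wordLength (gens π) (u⁻¹ * v)

lemma dd_le {u v : G} {w : List (S × Bool)} (h : u * π (mk w) = v) : dd π u v ≤ w.length := by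
  rw [dd, ← h, inv_mul_cancel_left]; exact wl_le π w

lemma dd_spec (surj : Function.Surjective π) (u v : G) :
    ∃ w : List (S × Bool), w.length = dd π u v ∧ u * π (mk w) = v := by
  obtain ⟨w, h1, h2⟩ := wl_spec π surj (u⁻¹ * v)
  exact ⟨w, h1, by rw [h2, mul_inv_cancel_left]⟩

lemma dd_tri (surj : Function.Surjective π) (u v w : G) : dd π u w ≤ dd π u v + dd π v w := by
  obtain ⟨a, h1, h2⟩ := dd_spec π surj u v
  obtain ⟨b, h3, h4⟩ := dd_spec π surj v w
  rw [← h1, ← h3, ← List.length_append]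
  exact dd_le π (by rw [← mul_mk, map_mul, ← mul_assoc, h2, h4])

lemma dd_symm (surj : Function.Surjective π) (u v : G) : dd π u v = dd π v u := by
  have : ∀ u v, dd π v u ≤ dd π u v := by
    intro u v
    obtain ⟨a, h1, h2⟩ := dd_spec π surj u v
    rw [← h1, ← FreeGroup.invRev_length]
    exact dd_le π (by rw [← inv_mk, map_inv, ← h2, mul_inv_cancel_right])
  exact le_antisymm (this _ _) (this _ _)

lemma dd_geo (surj : Function.Surjective π) (u v : G) :
    ∃ β : ℕ → G, Geo (dd π) β (dd π u v) ∧ β 0 = u ∧ β (dd π u v) = v := by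
  obtain ⟨w, h1, h2⟩ := dd_spec π surj u v
  refine ⟨fun i => u * π (mk (w.take i)), ?_, by simp [← one_eq_mk], by
    simp only [← h1, List.take_length, h2]⟩
  intro i j hij hj
  have e1 : dd π u (u * π (mk (w.take i))) ≤ (w.take i).length := dd_le π rfl
  have e2 : dd π (u * π (mk (w.take j))) v ≤ (w.drop j).length :=
    dd_le π (by rw [mul_assoc, ← map_mul, mul_mk, List.take_append_drop, h2])
  have e3 : dd π (u * π (mk (w.take i))) (u * π (mk (w.take j))) ≤
      ((w.take j).drop i).length := by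
    refine dd_le π ?_
    rw [mul_assoc, ← map_mul, mul_mk]
    conv_rhs => rw [← List.take_append_drop i (w.take j), List.take_take, min_eq_left hij]
  have e4 := dd_tri π surj u (u * π (mk (w.take i))) v
  have e5 := dd_tri π surj (u * π (mk (w.take i))) (u * π (mk (w.take j))) v
  simp only [List.length_take, List.length_drop] at e1 e2 e3
  show dd π (u * π (mk (w.take i))) (u * π (mk (w.take j))) = j - i
  omega

lemma ch_word [DecidableEq S] (surj : Function.Surjective π) {u v : G} {m : ℕ} {c : ℤ}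
    (h : Ch (dd π) f₁ f₂ u v m c) :
    ∃ w : List (S × Bool), w.length ≤ m ∧ u * π (mk w) = v ∧ ar π f₁ f₂ u w = c := by
  induction h with
  | nil => exact ⟨[], le_rfl, by simp [← one_eq_mk], rfl⟩
  | @snoc v v' m c _ h2 ih =>
    obtain ⟨w, a1, a2, a3⟩ := ih
    obtain ⟨w', b1, b2⟩ := dd_spec π surj v v'
    refine ⟨w ++ w', by rw [List.length_append]; omega,
      by rw [← mul_mk, map_mul, ← mul_assoc, a2, b2], ?_⟩
    rw [ar_append, a2, a3]
    congr 1
    rcases w' with _ | ⟨d, _ | ⟨d', w'⟩⟩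
    · rw [← one_eq_mk, map_one, mul_one] at b2
      subst b2; simp [ar]
    · simp only [ar, b2, ed, add_zero]
    · simp only [List.length_cons] at b1; omega

end

/-- linear isoperimetric inequality implies hyperbolic -/
theorem hyperbolic_of_linear {S Φ G : Type} [Finite S] [DecidableEq S] [Group G]
    (π : FreeGroup S →* G) (surj : Function.Surjective π) (wd : Φ → List (S × Bool)) (ℓ K : ℕ)
    (hℓ : ∀ φ, (wd φ).length ≤ ℓ) (hwd : ∀ φ, π (mk (wd φ)) = 1)
    (hlin : ∀ w : FreeGroup S, π w = 1 →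
      ∃ l : List (FreeGroup S × Φ), fprod wd l = w ∧ l.length ≤ K * w.norm) :
    IsHyperbolicGroup G := by
  classical
  have lip : ∀ f : G → ℕ, (∀ u v, f u ≤ f v + dd π u v) →
      ∀ u d, |(f (u * π (mk [d])) : ℤ) - f u| ≤ 1 := by
    intro f hf u d
    have e0 : dd π u (u * π (mk [d])) ≤ 1 := dd_le π (w := [d]) rfl
    have e1 := hf u (u * π (mk [d]))
    have e2 := hf (u * π (mk [d])) u
    rw [dd_symm π surj] at e2
    exact abs_le.2 ⟨by omega, by omega⟩
  let X : Sp G (2 * ℓ * ℓ * K) :=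
    { d := dd π
      self := fun u => Nat.eq_zero_of_le_zero (dd_le π (w := []) (by simp [← one_eq_mk]))
      symm := dd_symm π surj
      tri := dd_tri π surj
      geo := dd_geo π surj
      area := by
        intro f₁ f₂ l1 l2 u m c h
        obtain ⟨w, a1, a2, a3⟩ := ch_word π f₁ f₂ surj h
        obtain ⟨l, b1, b2⟩ := hlin (mk w) (by simpa using a2)
        have := arF_fprod π f₁ f₂ wd ℓ hℓ hwd (lip _ l1) (lip _ l2) u l
        rw [b1, arF_mk, a3] at this
        have b3 : l.length ≤ K * m :=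
          b2.trans (Nat.mul_le_mul_left _ (FreeGroup.norm_mk_le.trans a1))
        have b4 : (l.length : ℤ) ≤ K * m := by exact_mod_cast b3
        push_cast
        nlinarith [mul_nonneg (Int.natCast_nonneg ℓ) (Int.natCast_nonneg ℓ)] }
  have hfin : (gens π).Finite := Set.finite_range _
  refine ⟨hfin.toFinset, ?_, ((6 * (17 * (4 * (2 * ℓ * ℓ * K) + 1) + 7) + 2 : ℕ) : ℝ) / 2,
    by positivity, ?_⟩
  · rw [Set.Finite.coe_toFinset, gens, Set.range_comp' π of, ← MonoidHom.map_closure,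
      FreeGroup.closure_range_of]
    exact Subgroup.map_top_of_surjective π surj
  · intro w x y z
    have := X.four w x y z
    simp only [Set.Finite.coe_toFinset, gromovProduct, wordDist]
    change min (((dd π x w : ℝ) + dd π y w - dd π x y) / 2)
      (((dd π y w : ℝ) + dd π z w - dd π y z) / 2) - _ ≤ ((dd π x w : ℝ) + dd π z w - dd π x z) / 2
    change min ((dd π x w : ℤ) + dd π y w - dd π x y) ((dd π y w : ℤ) + dd π z w - dd π y z) -
      _ ≤ (dd π x w : ℤ) + dd π z w - dd π x z at this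
    generalize (6 * (17 * (4 * (2 * ℓ * ℓ * K) + 1) + 7) + 2 : ℕ) = D at *
    have h' : min ((dd π x w : ℝ) + dd π y w - dd π x y) ((dd π y w : ℝ) + dd π z w - dd π y z) -
      D ≤ (dd π x w : ℝ) + dd π z w - dd π x z := by exact_mod_cast this
    rw [min_div_div_right (by norm_num)]
    linarith

end Crest.Agent.ZD.Hyp
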